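import Vale.Agent.P162.Top2.Defs
import Vale.Agent.P162.Top.Block

namespace Vale.Agent.P162.Top

open Finset Real Vale.Agent.P162 Vale.Agent.P162.KL

/-- bit number `r` of the positions on the coset of `g0` (write `g0 x = posEquiv (κ, ρ)`,
`blockPerm_apply`, `posEquiv_val`: the position is `ρ + 2 ^ r * (h ρ κ)` with `ρ < 2 ^ r`) -/
theorem bitCol_blockPerm (k r : ℕ) (hr : r ≤ k)
    (h : Fin (2 ^ r) → Equiv.Perm (Fin (2 * 2 ^ (k - r)))) (g0 : G k) :
    SB.bitCol k r (blockPerm k r hr h * g0) =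
      outEquiv k r hr g0 (fun ρ => SB.lowCol (2 ^ (k - r)) (h ρ)) := by
  funext x
  obtain ⟨⟨κ, ρ⟩, hy⟩ := (posEquiv k r hr).surjective (g0 x)
  have h1 : (posEquiv k r hr).symm (g0 x) = (κ, ρ) := by rw [← hy, Equiv.symm_apply_apply]
  show decide (((blockPerm k r hr h * g0) x).val / 2 ^ r % 2 = 1)
    = SB.lowCol (2 ^ (k - r)) (h ((posEquiv k r hr).symm (g0 x)).2)
        ((posEquiv k r hr).symm (g0 x)).1
  rw [h1, Equiv.Perm.mul_apply, ← hy, blockPerm_apply, posEquiv_val]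
  unfold SB.lowCol
  rw [Nat.add_mul_div_left _ _ (by positivity), Nat.div_eq_of_lt ρ.2, zero_add]

/-- the `r + 1` lowest bits from the `r` lowest bits and bit number `r` (`r ≤ k`, no overflow) -/
theorem lowBits_succ_eq_comb (k r : ℕ) (hr : r ≤ k) (g : G k) :
    lowBits k (r + 1) g = combAt k r (lowBits k r g, SB.bitCol k r g) := by
  funext x
  apply Fin.ext
  show (g x).val % 2 ^ (r + 1)
    = ((g x).val % 2 ^ r + 2 ^ r * (if decide ((g x).val / 2 ^ r % 2 = 1) then 1 else 0))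
        % (2 * 2 ^ k)
  have h1 : (if decide ((g x).val / 2 ^ r % 2 = 1) then 1 else 0) = (g x).val / 2 ^ r % 2 := by
    rcases Nat.mod_two_eq_zero_or_one ((g x).val / 2 ^ r) with h | h <;> simp [h]
  rw [h1, ← Nat.mod_pow_succ]
  have h2 : (g x).val % 2 ^ (r + 1) < 2 * 2 ^ k := by
    calc (g x).val % 2 ^ (r + 1) < 2 ^ (r + 1) := Nat.mod_lt _ (by positivity)
      _ ≤ 2 ^ (k + 1) := Nat.pow_le_pow_right (by norm_num) (by omega)
      _ = 2 * 2 ^ k := by ring
  rw [Nat.mod_eq_of_lt h2]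

/-- the `r` lowest bits and bit number `r` from the `r + 1` lowest bits -/
theorem split_lowBits_succ (k r : ℕ) (g : G k) :
    splitAt k r (lowBits k (r + 1) g) = (lowBits k r g, SB.bitCol k r g) := by
  apply Prod.ext
  · funext x
    apply Fin.ext
    show (g x).val % 2 ^ (r + 1) % 2 ^ r = (g x).val % 2 ^ r
    exact Nat.mod_mod_of_dvd _ (pow_dvd_pow 2 (Nat.le_succ r))
  · funext x
    show decide ((g x).val % 2 ^ (r + 1) / 2 ^ r % 2 = 1) = decide ((g x).val / 2 ^ r % 2 = 1)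
    rw [pow_succ, Nat.mod_mul_right_div_self, Nat.mod_mod]

end Vale.Agent.P162.Top
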