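import Vale.Agent.P162.Top.Defs
import Vale.Agent.P162.SB.Defs

namespace Vale.Agent.P162.Top

open Finset Real Vale.Agent.P162 Vale.Agent.P162.KL

/-- split a code into (code / 2, lowest bit) -/
def dec (k : ℕ) (c : Fin (2 * 2 ^ k) → Fin (2 * 2 ^ k)) :
    (Fin (2 * 2 ^ k) → Fin (2 * 2 ^ k)) × (Fin (2 * 2 ^ k) → Bool) :=
  (fun x => ⟨(c x).val / 2, lt_of_le_of_lt (Nat.div_le_self _ _) (c x).isLt⟩,
   fun x => decide ((c x).val % 2 = 1))

/-- split a code into (code modulo `2 ^ r`, bit number `r`) -/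
def splitAt (k r : ℕ) (c : Fin (2 * 2 ^ k) → Fin (2 * 2 ^ k)) :
    (Fin (2 * 2 ^ k) → Fin (2 * 2 ^ k)) × (Fin (2 * 2 ^ k) → Bool) :=
  (fun x => ⟨(c x).val % 2 ^ r, lt_of_le_of_lt (Nat.mod_le _ _) (c x).isLt⟩,
   fun x => decide ((c x).val / 2 ^ r % 2 = 1))

/-- put bit number `r` on top of a code -/
def combAt (k r : ℕ) (aβ : (Fin (2 * 2 ^ k) → Fin (2 * 2 ^ k)) × (Fin (2 * 2 ^ k) → Bool)) :
    Fin (2 * 2 ^ k) → Fin (2 * 2 ^ k) :=
  fun x => ⟨((aβ.1 x).val + 2 ^ r * (if aβ.2 x then 1 else 0)) % (2 * 2 ^ k),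
    Nat.mod_lt _ (by positivity)⟩

/-- the constants of the block inequality, all levels -/
noncomputable def thS (i : ℕ) : ℝ := if i < 72 then 1 else 17 / SB.gz i

end Vale.Agent.P162.Top
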