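import Vale.Agent.P162.Top2.BitCol
import Vale.Agent.P162.Top.Fibre
import Vale.Agent.P162.SB.Tensor

namespace Vale.Agent.P162.Top

open Finset Real Vale.Agent.P162 Vale.Agent.P162.KL

theorem fibre_sb (k r : ℕ) (hr : r ≤ k) (θ : ℝ) (hθ : 0 ≤ θ)
    (hS : SB.SB (SB.lowCol (2 ^ (k - r))) (bitChan (2 ^ (k - r))) θ)
    (a : Fin (2 * 2 ^ k) → Fin (2 * 2 ^ k)) :
    SB.SB (fun ω : {g : G k // lowBits k r g = a} => SB.bitCol k r ω.1)
      (fun ω : {g : G k // lowBits k r g = a} => bitChan (2 ^ k) ω.1) θ := by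
  by_cases hne : Nonempty {g : G k // lowBits k r g = a}
  · obtain ⟨⟨g0, hg0⟩⟩ := hne
    let e : (Fin (2 ^ r) → Equiv.Perm (Fin (2 * 2 ^ (k - r)))) ≃ {g : G k // lowBits k r g = a} :=
      Equiv.ofBijective
        (fun h => ⟨blockPerm k r hr h * g0, by rw [lowBits_blockPerm_mul, hg0]⟩)
        ⟨by
          intro h h' hh
          have h1 : blockPerm k r hr h * g0 = blockPerm k r hr h' * g0 := congrArg Subtype.val hh
          exact blockPerm_injective k r hr (mul_right_cancel h1),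
         by
          rintro ⟨g, hg⟩
          obtain ⟨h, hh⟩ := exists_blockPerm k r hr g g0 (hg.trans hg0.symm)
          exact ⟨h, Subtype.ext hh.symm⟩⟩
    exact SB.SB_equiv e (outEquiv k r hr g0) (outEquiv k r hr g0) _ _ _ _
      (fun h => bitCol_blockPerm k r hr h g0)
      (fun h β => bitChan_blockPerm k r hr h g0 β) θ
      (SB.SB_pi _ _ (isChan_bitChan _) θ hθ hS (2 ^ r))
  · intro p hp
    exfalso
    have : IsEmpty {g : G k // lowBits k r g = a} := not_nonempty_iff.mp hne
    have h1 := hp.2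
    simp at h1

end Vale.Agent.P162.Top
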