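import Vale.Agent.P162.SB.Defs
import Vale.Agent.P162.KL.JointPair
import Vale.Agent.P162.KL.DvKl
import Vale.Agent.P162.KL.TwoCopy

namespace Vale.Agent.P162.SB

open Finset Real Vale.Agent.P162 Vale.Agent.P162.KL

/-- the first marginal of the joint law is the law of `β` -/
theorem pm_joint_fst {A B C : Type*} [Fintype A] [Fintype B] [DecidableEq B] [Fintype C]
    (β : A → B) (K : A → C → ℝ) (hK : IsChan K) (μ : A → ℝ) :
    KL.pm (joint β K μ) Prod.fst = KL.pm μ β := by
  funext b
  unfold KL.pm
  rw [Finset.sum_filter, Fintype.sum_prod_type, Finset.sum_filter]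
  simp only
  rw [Finset.sum_eq_single b]
  · simp only [if_true]
    unfold joint
    simp only
    rw [Finset.sum_comm]
    refine Finset.sum_congr rfl (fun ω _ => ?_)
    by_cases h : β ω = b
    · simp only [h, if_true]
      rw [← Finset.mul_sum, (hK ω).2, mul_one]
    · simp [h]
  · intro b' _ hb'
    simp [hb']
  · intro h
    exact absurd (Finset.mem_univ _) h

/-- SB holds trivially with constant one: `D(T) ≤ D(input)` (data processing for channels,
`kl_push_le` of KL/TwoCopy) and `D(β) ≤ D(β, T)` (`pm (joint β K p) Prod.fst = pm p β`, then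
`Dv_le_kl` with `pair_joint`) -/
theorem SB_one {A B C : Type*} [Fintype A] [Fintype B] [DecidableEq B] [Fintype C]
    [DecidableEq C] (β : A → B) (K : A → C → ℝ) (hK : IsChan K) : SB β K 1 := by
  intro p hp
  have hne : Nonempty A := by
    by_contra hcon
    have : IsEmpty A := not_nonempty_iff.mp hcon
    have h1 := hp.2
    simp at h1
  have hcard : (0 : ℝ) < Fintype.card A := by
    exact_mod_cast Fintype.card_pos
  have hupos : ∀ a : A, 0 < unif A a := fun a => by
    unfold unif
    positivity
  have h1 : kl (push K p) (push K (unif A)) ≤ kl p (unif A) :=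
    kl_push_le K hK p (unif A) hp.1 (fun a => (hupos a).le)
      (fun a h => absurd h (hupos a).ne')
  have h2 := Dv_le_kl (pair_joint β K hK p hp) (Prod.fst : B × C → B)
  unfold Dv at h2 ⊢
  rw [pm_joint_fst β K hK, pm_joint_fst β K hK] at h2
  linarith

end Vale.Agent.P162.SB
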