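import Vale.Agent.P162.SB.Rec

namespace Vale.Agent.P162.Top

open Finset Real

/-- crude bound for the entropy of the uniform law on the deck -/
theorem log_factorial_two_pow_le (d : ℕ) :
    Real.log ((2 ^ d).factorial : ℝ) ≤ (d : ℝ) * 2 ^ d := by
  have h1 : ((2 ^ d).factorial : ℝ) ≤ ((2 : ℝ) ^ d) ^ (2 ^ d) := by
    have := Nat.factorial_le_pow (2 ^ d)
    exact_mod_cast this
  have h0 : (0 : ℝ) < ((2 ^ d).factorial : ℝ) := by
    exact_mod_cast Nat.factorial_pos _
  have h2 := Real.log_le_log h0 h1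
  rw [Real.log_pow, Real.log_pow] at h2
  have h3 : Real.log 2 ≤ 1 := by
    have := Real.log_le_sub_one_of_pos (show (0 : ℝ) < 2 by norm_num)
    linarith
  have h4 : (0 : ℝ) ≤ (d : ℝ) * 2 ^ d := by positivity
  calc Real.log ((2 ^ d).factorial : ℝ) ≤ ((2 ^ d : ℕ) : ℝ) * ((d : ℝ) * Real.log 2) := h2
    _ = ((d : ℝ) * 2 ^ d) * Real.log 2 := by push_cast; ring
    _ ≤ ((d : ℝ) * 2 ^ d) * 1 := mul_le_mul_of_nonneg_left h3 h4
    _ = (d : ℝ) * 2 ^ d := by ring

/-- the scalar recursion (R) of route 331.  `a t r` = divergence of the `r` lowest position bits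
at time `t`; `θ` decays geometrically. -/
theorem scalarR (θ : ℕ → ℝ) (K0 q : ℝ) (hθ0 : ∀ i, 0 ≤ θ i) (hq0 : 0 < q) (hq1 : q < 1)
    (hθ : ∀ i, θ i ≤ K0 * q ^ i) :
    ∃ C : ℝ, 0 < C ∧ ∀ (k : ℕ) (a : ℕ → ℕ → ℝ),
      (∀ t r, a t r ≤ a t (r + 1)) → (∀ t, a t 0 = 0) →
      (∀ t r, r ≤ k → a (t + 1) (r + 1) - a t r ≤ (a t (k + 1) - a t r) / 2) →
      (∀ t r, r + 1 ≤ k → a t (r + 1) + a (t + 1) (r + 1) ≤
        a t r + a (t + 1) (r + 2) + θ (k - r) * (a t (k + 1) - a t r)) →
      a 0 (k + 1) ≤ Real.log ((2 * 2 ^ k).factorial : ℝ) →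
      ∀ t : ℕ, C * ((k : ℝ) + 1) ^ 2 ≤ t → a t (k + 1) ≤ 1 / 8 := by
  have hK0 : 0 ≤ K0 := by
    have h1 := hθ 0
    have h2 := hθ0 0
    rw [pow_zero, mul_one] at h1
    linarith
  obtain ⟨C, hC0, hC⟩ := SB.rec_geom K0 q hK0 hq0 hq1 0
  refine ⟨C, hC0, ?_⟩
  intro k a hmono hzero hH1 hH2 hinit t ht
  have hmon : ∀ t, Monotone (a t) := fun t => monotone_nat_of_le_succ (hmono t)
  have key := hC (k + 1) (by omega) (fun t j => a t (k + 1 - j))
    (fun t j => a (t + 1) (k + 1 - j) - a t (k - j))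
    (by
      intro t j hj
      exact hmon t (by omega))
    (by
      intro t
      simp only [Nat.sub_self]
      exact hzero t)
    (by
      intro t j hj
      have e : k + 1 - (j + 1) = k - j := by omega
      simp only [e]
      linarith)
    (by
      intro t j hj
      have e : k + 1 - (j + 1) = k - j := by omega
      have e2 : k + 1 - j = (k - j) + 1 := by omega
      have h := hH1 t (k - j) (by omega)
      simp only [e, e2, Nat.sub_zero]
      exact h)
    (by
      intro t j _ hj1 hj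
      have e : k + 1 - (j + 1) = k - j := by omega
      have e2 : k + 1 - j = (k - j) + 1 := by omega
      have e3 : k + 1 - (j - 1) = (k - j) + 2 := by omega
      have e4 : k - (j - 1) = (k - j) + 1 := by omega
      have e5 : k - (k - j) = j := by omega
      have h := hH2 t (k - j) (by omega)
      rw [e5] at h
      have h0 : 0 ≤ a t (k + 1) - a t (k - j) := by
        have := hmon t (show k - j ≤ k + 1 by omega)
        linarith
      have h1 := mul_le_mul_of_nonneg_right (hθ j) h0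
      simp only [e, e2, e3, e4, Nat.sub_zero]
      linarith)
    (by
      simp only [Nat.sub_zero]
      have h := log_factorial_two_pow_le (k + 1)
      have e : 2 * 2 ^ k = 2 ^ (k + 1) := by rw [pow_succ]; ring
      rw [e] at hinit
      exact hinit.trans h)
    t (by push_cast; exact ht)
  simpa using key

end Vale.Agent.P162.Top
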