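import Vale.Agent.P162.Top2.Defs

namespace Vale.Agent.P162.Top

open Finset Real

theorem thS_nonneg (i : ℕ) : 0 ≤ thS i := by
  unfold thS SB.gz
  split_ifs
  · norm_num
  · positivity

/-- geometric decay of the constants: `gz i = 2 ^ (i / 8)` (natural division), so
`17 / gz i ≤ 34 * q ^ i` with `q = (1/2) ^ (1/8)`; the first 72 values are absorbed in `K0` -/
theorem thS_geom : ∃ K0 q : ℝ, 0 < q ∧ q < 1 ∧ ∀ i, thS i ≤ K0 * q ^ i := by
  obtain ⟨q, hq⟩ : ∃ q : ℝ, q = 12 / 13 := ⟨_, rfl⟩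
  have hq0 : 0 < q := by rw [hq]; norm_num
  have hq1 : q < 1 := by rw [hq]; norm_num
  have h8 : (1 / 2 : ℝ) ≤ q ^ 8 := by rw [hq]; norm_num
  refine ⟨17 / q ^ 72, q, hq0, hq1, ?_⟩
  intro i
  have h72 : 0 < q ^ 72 := by positivity
  unfold thS
  split_ifs with h
  · have h1 : q ^ 72 ≤ q ^ i := pow_le_pow_of_le_one hq0.le hq1.le (by omega)
    rw [div_mul_eq_mul_div, le_div_iff₀ h72]
    linarith
  · unfold SB.gz
    have e : (17 : ℝ) / 2 ^ (i / 8) = 17 * (1 / 2) ^ (i / 8) := by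
      rw [one_div, inv_pow]
      ring
    have h1 : (1 / 2 : ℝ) ^ (i / 8) ≤ (q ^ 8) ^ (i / 8) := pow_le_pow_left₀ (by norm_num) h8 _
    have h2 : (q ^ 8) ^ (i / 8) * q ^ (i % 8) = q ^ i := by
      rw [← pow_mul, ← pow_add, Nat.div_add_mod]
    have h3 : q ^ 72 ≤ q ^ (i % 8) := pow_le_pow_of_le_one hq0.le hq1.le (by omega)
    have hx : 0 ≤ (q ^ 8) ^ (i / 8) := by positivity
    rw [e, div_mul_eq_mul_div, le_div_iff₀ h72]
    calc 17 * (1 / 2 : ℝ) ^ (i / 8) * q ^ 72 ≤ 17 * (q ^ 8) ^ (i / 8) * q ^ 72 := by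
          apply mul_le_mul_of_nonneg_right _ h72.le
          linarith
      _ ≤ 17 * (q ^ 8) ^ (i / 8) * q ^ (i % 8) := by
          apply mul_le_mul_of_nonneg_left h3
          positivity
      _ = 17 * q ^ i := by rw [mul_assoc, h2]

end Vale.Agent.P162.Top
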