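import Vale.Agent.P162.Top2.TwoLevel
import Vale.Agent.P162.Top2.ScalarR
import Vale.Agent.P162.Top2.ThS
import Vale.Agent.P162.Top2.SBOne
import Vale.Agent.P162.Top.Final

namespace Vale.Agent.P162.Top

open Finset Real Vale.Agent.P162 Vale.Agent.P162.KL

/-- TOP2, general form: (A) and the block property SB with geometrically decaying constants give
`t_mix = O(d ^ 2)` -/
theorem top2_general (hA : ∀ M : ℕ, 1 ≤ M → SDPI (bitChan M) (1 / 2))
    (θ : ℕ → ℝ) (K0 q : ℝ) (hθ0 : ∀ i, 0 ≤ θ i) (hq0 : 0 < q) (hq1 : q < 1)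
    (hθ : ∀ i, θ i ≤ K0 * q ^ i)
    (hS : ∀ i : ℕ, 1 ≤ i → SB.SB (SB.lowCol (2 ^ i)) (bitChan (2 ^ i)) (θ i)) :
    ∃ C : ℝ, 0 < C ∧ ∀ k t : ℕ, C * ((k : ℝ) + 1) ^ 2 ≤ t →
      tvUnif (thorpPow (2 ^ k) t) ≤ 1 / 4 := by
  obtain ⟨C, hC0, hC⟩ := scalarR θ K0 q hθ0 hq0 hq1 hθ
  refine ⟨C, hC0, fun k t ht => ?_⟩
  have hlaw := fun s => isLaw_thorpPow (2 ^ k) s
  have h := hC k (fun s r => Sr k r (thorpPow (2 ^ k) s))
    (fun s r => Sr_mono k (Nat.le_succ r) _ (hlaw s))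
    (fun s => Sr_zero k _ (hlaw s))
    (by
      intro s r hr
      have h1 := one_step k r hr (1 / 2) (hA _ Nat.one_le_two_pow) _ (hlaw s)
      rw [← thorpPow_succ'] at h1
      simp only [Sr_top]
      linarith)
    (by
      intro s r hr
      have h1 := two_level k r hr (θ (k - r)) (hθ0 _) (hS _ (by omega)) _ (hlaw s)
      rw [← thorpPow_succ'] at h1
      simp only [Sr_top]
      exact h1)
    (by
      simp only [Sr_top]
      exact le_of_eq (kl_thorpPow_zero k))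
    t ht
  simp only [Sr_top] at h
  exact tv_le_of_kl _ (hlaw t) h

/-- TOP2 with the constants of `SB.block_sb` -/
theorem top2_final (hA : ∀ M : ℕ, 1 ≤ M → SDPI (bitChan M) (1 / 2))
    (hS : ∀ i : ℕ, 72 ≤ i → SB.SB (SB.lowCol (2 ^ i)) (bitChan (2 ^ i)) (17 / SB.gz i)) :
    ∃ C : ℝ, 0 < C ∧ ∀ k t : ℕ, C * ((k : ℝ) + 1) ^ 2 ≤ t →
      tvUnif (thorpPow (2 ^ k) t) ≤ 1 / 4 := by
  obtain ⟨K0, q, hq0, hq1, hθ⟩ := thS_geom
  refine top2_general hA thS K0 q thS_nonneg hq0 hq1 hθ ?_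
  intro i _
  unfold thS
  split_ifs with h
  · exact SB.SB_one _ _ (isChan_bitChan _)
  · exact hS i (not_lt.mp h)

end Vale.Agent.P162.Top
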