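import Vale.Agent.P162.KL.JointPair
import Vale.Agent.P162.KL.DvKl

namespace Vale.Agent.P162.KL

open Finset Real

/-- `joint (φ ∘ F) K ν` is the image of `joint F K ν` under `(c, b) ↦ (φ c, b)` -/
theorem joint_comp_eq_pm {Om B C C' : Type*} [Fintype Om] [Fintype B] [DecidableEq B] [Fintype C]
    [DecidableEq C] [Fintype C'] [DecidableEq C'] (F : Om → C) (φ : C → C') (K : Om → B → ℝ)
    (ν : Om → ℝ) :
    joint (fun ω => φ (F ω)) K ν
      = pm (joint F K ν) (fun cb : C × B => (φ cb.1, cb.2)) := by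
  funext ab
  obtain ⟨c', b⟩ := ab
  unfold pm joint
  rw [Finset.sum_filter, Fintype.sum_prod_type]
  simp only [Prod.mk.injEq]
  have h1 : ∀ c : C, (∑ b' : B, if φ c = c' ∧ b' = b then
        ∑ ω, (if F ω = c then ν ω * K ω b' else 0) else 0)
      = ∑ ω, (if φ c = c' then (if F ω = c then ν ω * K ω b else 0) else 0) := by
    intro c
    rw [Finset.sum_eq_single b]
    · by_cases h : φ c = c'
      · simp [h]
      · simp [h]
    · intro b' _ hb'
      simp [hb']
    · intro h
      exact absurd (Finset.mem_univ _) h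
  rw [Finset.sum_congr rfl (fun c _ => h1 c), Finset.sum_comm]
  refine Finset.sum_congr rfl (fun ω _ => ?_)
  rw [Finset.sum_eq_single (F ω)]
  · simp
  · intro c _ hc
    have : ¬ F ω = c := fun h => hc h.symm
    simp [this]
  · intro h
    exact absurd (Finset.mem_univ _) h

/-- data processing in the first coordinate of a joint law: `joint (φ ∘ F) K μ` is the image of
`joint F K μ` under `(c, b) ↦ (φ c, b)`; then `Dv_le_kl` with `pair_joint` -/
theorem kl_joint_comp_le {Om B C C' : Type*} [Fintype Om] [Fintype B] [DecidableEq B] [Fintype C]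
    [DecidableEq C] [Fintype C'] [DecidableEq C'] (F : Om → C) (φ : C → C') (K : Om → B → ℝ)
    (hK : IsChan K) (μ : Om → ℝ) (hμ : IsLaw μ) :
    kl (joint (fun ω => φ (F ω)) K μ) (joint (fun ω => φ (F ω)) K (unif Om)) ≤
      kl (joint F K μ) (joint F K (unif Om)) := by
  rw [joint_comp_eq_pm F φ K μ, joint_comp_eq_pm F φ K (unif Om)]
  exact Dv_le_kl (pair_joint F K hK μ hμ) (fun cb : C × B => (φ cb.1, cb.2))

end Vale.Agent.P162.KL
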