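import Vale.Agent.P162.Top2.Defs
import Vale.Agent.P162.Top.SrSucc

namespace Vale.Agent.P162.Top

open Finset Real Vale.Agent.P162 Vale.Agent.P162.KL

theorem joint_lowBits_zero (k r : ℕ) (hr : r ≤ k) (μ : G k → ℝ)
    (p : (Fin (2 * 2 ^ k) → Fin (2 * 2 ^ k)) × (Fin (2 * 2 ^ k) → Bool))
    (h : ¬ ∀ x, (p.1 x).val < 2 ^ k) :
    joint (lowBits k r) (bitChan (2 ^ k)) μ p = 0 := by
  unfold joint
  apply Finset.sum_eq_zero
  intro g _
  rw [if_neg]
  intro hg
  apply h
  intro x
  rw [← hg]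
  show (g x).val % 2 ^ r < 2 ^ k
  exact lt_of_lt_of_le (Nat.mod_lt _ (by positivity)) (Nat.pow_le_pow_right (by norm_num) hr)

theorem dec_enc (k : ℕ)
    (p : (Fin (2 * 2 ^ k) → Fin (2 * 2 ^ k)) × (Fin (2 * 2 ^ k) → Bool))
    (h : ∀ x, (p.1 x).val < 2 ^ k) : dec k (enc k p) = p := by
  apply Prod.ext
  · funext x
    apply Fin.ext
    show ((2 * (p.1 x).val + (if p.2 x then 1 else 0)) % (2 * 2 ^ k)) / 2 = (p.1 x).val
    have hx := h x
    cases hb : p.2 x
    · have e : (2 * (p.1 x).val + 0) % (2 * 2 ^ k) = 2 * (p.1 x).val + 0 :=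
        Nat.mod_eq_of_lt (by omega)
      simp only [Bool.false_eq_true, if_false]
      rw [e]
      omega
    · have e : (2 * (p.1 x).val + 1) % (2 * 2 ^ k) = 2 * (p.1 x).val + 1 :=
        Nat.mod_eq_of_lt (by omega)
      simp only [if_true]
      rw [e]
      omega
  · funext x
    show decide (((2 * (p.1 x).val + (if p.2 x then 1 else 0)) % (2 * 2 ^ k)) % 2 = 1) = p.2 x
    have hx := h x
    cases hb : p.2 x
    · have e : (2 * (p.1 x).val + 0) % (2 * 2 ^ k) = 2 * (p.1 x).val + 0 :=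
        Nat.mod_eq_of_lt (by omega)
      simp only [Bool.false_eq_true, if_false]
      rw [e]
      apply decide_eq_false
      omega
    · have e : (2 * (p.1 x).val + 1) % (2 * 2 ^ k) = 2 * (p.1 x).val + 1 :=
        Nat.mod_eq_of_lt (by omega)
      simp only [if_true]
      rw [e]
      apply decide_eq_true
      omega

/-- the joint law of (the `r` lowest bits, new bit) is the image under `dec` of the law of the
`r + 1` lowest bits after the shuffle -/
theorem joint_eq_pm_dec (k r : ℕ) (hr : r ≤ k) (μ : G k → ℝ)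
    (aτ : (Fin (2 * 2 ^ k) → Fin (2 * 2 ^ k)) × (Fin (2 * 2 ^ k) → Bool)) :
    joint (lowBits k r) (bitChan (2 ^ k)) μ aτ =
      KL.pm (KL.pm (conv (thorpLaw (2 ^ k)) μ) (lowBits k (r + 1))) (dec k) aτ := by
  have h1 : KL.pm (conv (thorpLaw (2 ^ k)) μ) (lowBits k (r + 1)) =
      KL.pm (joint (lowBits k r) (bitChan (2 ^ k)) μ) (enc k) :=
    funext (pm_conv_lowBits k r hr μ)
  rw [h1]
  have h2 := pm_comp (joint (lowBits k r) (bitChan (2 ^ k)) μ) (enc k) (dec k) aτ
  have h3 : KL.pm (KL.pm (joint (lowBits k r) (bitChan (2 ^ k)) μ) (enc k)) (dec k) aτ =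
      ∑ a ∈ Finset.univ.filter (fun a => dec k a = aτ),
        KL.pm (joint (lowBits k r) (bitChan (2 ^ k)) μ) (enc k) a := rfl
  rw [h3, ← h2]
  unfold KL.pm
  rw [Finset.sum_filter]
  by_cases ha : ∀ x, (aτ.1 x).val < 2 ^ k
  · rw [Finset.sum_eq_single aτ]
    · simp only [Function.comp, dec_enc k aτ ha, if_true]
    · intro p _ hp
      by_cases hq : ∀ x, (p.1 x).val < 2 ^ k
      · simp only [Function.comp, dec_enc k p hq, if_neg hp]
      · rw [joint_lowBits_zero k r hr μ p hq]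
        simp
    · intro h
      exact absurd (Finset.mem_univ _) h
  · rw [joint_lowBits_zero k r hr μ aτ ha]
    symm
    apply Finset.sum_eq_zero
    intro p _
    by_cases hq : ∀ x, (p.1 x).val < 2 ^ k
    · have hne : p ≠ aτ := by
        intro h
        exact ha (h ▸ hq)
      simp only [Function.comp, dec_enc k p hq, if_neg hne]
    · rw [joint_lowBits_zero k r hr μ p hq]
      simp

end Vale.Agent.P162.Top
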