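import Vale.Agent.P162.Top2.SrGe
import Vale.Agent.P162.KL.Mono

namespace Vale.Agent.P162.Top

open Finset Real Vale.Agent.P162 Vale.Agent.P162.KL

/-- push-forwards of a `Pair` form a `Pair` -/
theorem pair_pm {Om A : Type*} [Fintype Om] [Fintype A] [DecidableEq A] {P U : Om → ℝ}
    (h : Pair P U) (X : Om → A) : Pair (KL.pm P X) (KL.pm U X) :=
  ⟨pm_nonneg P h.nnP X, pm_nonneg U h.nnU X, pm_ac P U h.nnP h.nnU h.ac X,
    by rw [pm_sum, h.sumP], by rw [pm_sum, h.sumU]⟩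

theorem isLaw_conv (m : ℕ) (μ : Equiv.Perm (Fin (2 * m)) → ℝ) (hμ : IsLaw μ) :
    IsLaw (conv (thorpLaw m) μ) :=
  ⟨conv_nonneg _ _ (thorpLaw_nonneg m) hμ.1, by rw [sum_conv, sum_thorpLaw, hμ.2, one_mul]⟩

/-- reverse inequality of `Sr_succ_conv_le` -/
theorem Sr_succ_conv_ge (k r : ℕ) (hr : r ≤ k) (μ : G k → ℝ) (hμ : IsLaw μ) :
    kl (joint (lowBits k r) (bitChan (2 ^ k)) μ)
        (joint (lowBits k r) (bitChan (2 ^ k)) (unif (G k))) ≤
      Sr k (r + 1) (conv (thorpLaw (2 ^ k)) μ) := by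
  have h1 : joint (lowBits k r) (bitChan (2 ^ k)) μ =
      KL.pm (KL.pm (conv (thorpLaw (2 ^ k)) μ) (lowBits k (r + 1))) (dec k) :=
    funext (joint_eq_pm_dec k r hr μ)
  have h2 : joint (lowBits k r) (bitChan (2 ^ k)) (unif (G k)) =
      KL.pm (KL.pm (unif (G k)) (lowBits k (r + 1))) (dec k) := by
    have h3 := funext (joint_eq_pm_dec k r hr (unif (G k)))
    rw [conv_thorpLaw_unif] at h3
    exact h3
  have hP : Pair (conv (thorpLaw (2 ^ k)) μ) (unif (G k)) := pair_unif _ (isLaw_conv _ μ hμ)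
  have h4 := Dv_le_kl (pair_pm hP (lowBits k (r + 1))) (dec k)
  rw [h1, h2]
  exact h4

end Vale.Agent.P162.Top
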