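import Vale.Agent.P162.Top2.FibreSB
import Vale.Agent.P162.Top2.SrGe2
import Vale.Agent.P162.Top2.JointComp
import Vale.Agent.P162.SB.Cond

namespace Vale.Agent.P162.Top

open Finset Real Vale.Agent.P162 Vale.Agent.P162.KL

/-- the two-level inequality of route 331 at deck level -/
theorem two_level (k r : ℕ) (hr : r + 1 ≤ k) (θ : ℝ) (hθ : 0 ≤ θ)
    (hS : SB.SB (SB.lowCol (2 ^ (k - r))) (bitChan (2 ^ (k - r))) θ) (μ : G k → ℝ)
    (hμ : IsLaw μ) :
    Sr k (r + 1) μ + Sr k (r + 1) (conv (thorpLaw (2 ^ k)) μ) ≤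
      Sr k r μ + Sr k (r + 2) (conv (thorpLaw (2 ^ k)) μ) +
        θ * (kl μ (unif (G k)) - Sr k r μ) := by
  have hr' : r ≤ k := by omega
  have h1 := SB.cond_sb (lowBits k r) (SB.bitCol k r) (bitChan (2 ^ k)) (isChan_bitChan _) θ
    (fibre_sb k r hr' θ hθ hS) μ hμ
  have h2 := Sr_succ_conv_le k r hr' μ hμ
  have h3 := Sr_succ_conv_ge k (r + 1) hr μ hμ
  have h4 : Sr k (r + 1) μ ≤
      Dv μ (unif (G k)) (fun g => (lowBits k r g, SB.bitCol k r g)) := by
    have h5 := Dv_comp_le (pair_unif μ hμ) (fun g => (lowBits k r g, SB.bitCol k r g))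
      (combAt k r)
    have e1 : combAt k r ∘ (fun g => (lowBits k r g, SB.bitCol k r g)) = lowBits k (r + 1) := by
      funext g
      exact (lowBits_succ_eq_comb k r hr' g).symm
    rw [e1] at h5
    exact h5
  have h6 := kl_joint_comp_le (lowBits k (r + 1)) (splitAt k r) (bitChan (2 ^ k))
    (isChan_bitChan _) μ hμ
  have e2 : (fun g => splitAt k r (lowBits k (r + 1) g)) =
      (fun g => (lowBits k r g, SB.bitCol k r g)) := by
    funext g
    exact split_lowBits_succ k r g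
  rw [e2] at h6
  unfold Sr at *
  linarith

end Vale.Agent.P162.Top
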